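import Mathlib

/-!
P043, Euclidean form, part 1: exact tilings by half-open unit cubes and the shift lemma.
-/

namespace Vale.Agent.P043.PTC

variable {d : ℕ} {ι : Type*}

/-- the half-open unit cubes `b i + [0,1)^d` tile `ℝ^d` exactly (indexed family). -/
def Cov (b : ι → Fin d → ℝ) : Prop :=
  ∀ x : Fin d → ℝ, ∃! i, ∀ k, b i k ≤ x k ∧ x k < b i k + 1

theorem psi_int (ψ : ℝ → ℝ) (hψ : ∀ t, ψ (t + 1) = ψ t + 1) (t : ℝ) (n : ℤ) :
    ψ (t + n) = ψ t + n := by
  induction n using Int.induction_on with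
  | zero => simp
  | succ n ih =>
    have := hψ (t + (n : ℤ))
    push_cast at this ih ⊢
    rw [← add_assoc, this, ih]; ring
  | pred n ih =>
    have := hψ (t + ((-(n : ℤ) - 1 : ℤ) : ℝ))
    push_cast at this ih ⊢
    have e : t + (-(n : ℝ) - 1) + 1 = t + -(n : ℝ) := by ring
    rw [e, ih] at this
    linarith

/-- Keller's shift lemma, one coordinate. -/
theorem Cov.shift_one {b : ι → Fin d → ℝ} (hb : Cov b) (j : Fin d) (ψ : ℝ → ℝ)
    (hψ : ∀ t, ψ (t + 1) = ψ t + 1) :
    Cov (fun i => Function.update (b i) j (ψ (b i j))) := by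
  classical
  intro x
  -- the line through `x`
  set L : Set ι := {i | ∀ k, k ≠ j → b i k ≤ x k ∧ x k < b i k + 1} with hL
  have hline : ∀ s : ℝ, ∃ i ∈ L, (b i j ≤ s ∧ s < b i j + 1) ∧
      ∀ i' ∈ L, (b i' j ≤ s ∧ s < b i' j + 1) → i' = i := by
    intro s
    obtain ⟨i, hi, hu⟩ := hb (Function.update x j s)
    refine ⟨i, ?_, ?_, ?_⟩
    · intro k hk
      have := hi k
      rwa [Function.update_of_ne hk] at this
    · have := hi j
      rwa [Function.update_self] at this
    · intro i' hi' h'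
      apply hu
      intro k
      by_cases hk : k = j
      · subst hk; rw [Function.update_self]; exact h'
      · rw [Function.update_of_ne hk]; exact hi' k hk
  have huniq : ∀ s : ℝ, ∀ i ∈ L, ∀ i' ∈ L, (b i j ≤ s ∧ s < b i j + 1) →
      (b i' j ≤ s ∧ s < b i' j + 1) → i = i' := by
    intro s i hi i' hi' h h'
    obtain ⟨i0, _, _, hu⟩ := hline s
    rw [hu i hi h, hu i' hi' h']
  have hnext : ∀ i ∈ L, ∃ i' ∈ L, b i' j = b i j + 1 := by
    intro i hi
    obtain ⟨i', hi', ⟨h1, h2⟩, _⟩ := hline (b i j + 1)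
    refine ⟨i', hi', ?_⟩
    by_contra hne
    have hlt : b i' j < b i j + 1 := lt_of_le_of_ne h1 hne
    have := huniq (b i' j) i hi i' hi' ⟨by linarith, hlt⟩ ⟨le_refl _, by linarith⟩
    subst this
    linarith
  have hprev : ∀ i ∈ L, ∃ i' ∈ L, b i' j = b i j - 1 := by
    intro i hi
    obtain ⟨i', hi', ⟨h1, h2⟩, _⟩ := hline (b i j - 1)
    refine ⟨i', hi', ?_⟩
    by_contra hne
    have hlt : b i' j < b i j - 1 := lt_of_le_of_ne h1 hne
    obtain ⟨i2, hi2, h3⟩ := hnext i' hi'
    have := huniq (b i j) i hi i2 hi2 ⟨le_refl _, by linarith⟩ ⟨by linarith, by linarith⟩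
    subst this
    linarith
  obtain ⟨i0, hi0, _, _⟩ := hline 0
  set t := b i0 j with ht
  have hall : ∀ n : ℤ, ∃ i ∈ L, b i j = t + n := by
    intro n
    induction n using Int.induction_on with
    | zero => exact ⟨i0, hi0, by simp [ht]⟩
    | succ n ih =>
      obtain ⟨i, hi, h⟩ := ih
      obtain ⟨i', hi', h'⟩ := hnext i hi
      refine ⟨i', hi', ?_⟩
      rw [h', h]; push_cast; ring
    | pred n ih =>
      obtain ⟨i, hi, h⟩ := ih
      obtain ⟨i', hi', h'⟩ := hprev i hi
      refine ⟨i', hi', ?_⟩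
      rw [h', h]; push_cast; ring
  have hint : ∀ i ∈ L, ∃ n : ℤ, b i j = t + n := by
    intro i hi
    obtain ⟨i1, hi1, h1⟩ := hall ⌊b i j - t⌋
    have hf1 := Int.floor_le (b i j - t)
    have hf2 := Int.lt_floor_add_one (b i j - t)
    have := huniq (b i j) i hi i1 hi1 ⟨le_refl _, by linarith⟩
      ⟨by rw [h1]; linarith, by rw [h1]; linarith⟩
    subst this
    exact ⟨_, h1⟩
  -- existence and uniqueness
  obtain ⟨i, hi, hbi⟩ := hall ⌊x j - ψ t⌋
  have hf1 := Int.floor_le (x j - ψ t)
  have hf2 := Int.lt_floor_add_one (x j - ψ t)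
  have hψi : ψ (b i j) = ψ t + ⌊x j - ψ t⌋ := by rw [hbi, psi_int ψ hψ]
  refine ⟨i, ?_, ?_⟩
  · intro k
    by_cases hk : k = j
    · subst hk
      simp only [Function.update_self]
      rw [hψi]
      constructor <;> linarith
    · simp only [Function.update_of_ne hk]
      exact hi k hk
  · intro i' hi'
    have hi'L : i' ∈ L := by
      intro k hk
      have := hi' k
      simp only [Function.update_of_ne hk] at this
      exact this
    obtain ⟨m, hm⟩ := hint i' hi'L
    have hj := hi' j
    simp only [Function.update_self] at hj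
    rw [hm, psi_int ψ hψ] at hj
    have hmn : m = ⌊x j - ψ t⌋ := by
      symm
      rw [Int.floor_eq_iff]
      constructor <;> linarith
    have hbb : b i' j = b i j := by rw [hm, hbi, hmn]
    exact huniq (b i j) i' hi'L i hi ⟨by rw [hbb], by rw [hbb]; linarith⟩
      ⟨le_refl _, by linarith⟩

/-- the shift lemma in all coordinates. -/
theorem Cov.shift_all {b : ι → Fin d → ℝ} (hb : Cov b) (ψ : ℝ → ℝ)
    (hψ : ∀ t, ψ (t + 1) = ψ t + 1) :
    Cov (fun i k => ψ (b i k)) := by
  classical
  have key : ∀ s : Finset (Fin d), Cov (fun i k => if k ∈ s then ψ (b i k) else b i k) := by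
    intro s
    induction s using Finset.induction_on with
    | empty => simpa using hb
    | insert j s hj ih =>
      have := ih.shift_one j ψ hψ
      convert this using 3 with i k
      by_cases hk : k = j
      · subst hk
        simp [hj]
      · simp [hk]
  have := key Finset.univ
  simpa using this

end Vale.Agent.P043.PTC
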