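import Mathlib
import Vale.Agent.P043.PTC.Euclid1

/-!
P043, Euclidean form, part 2: the polycube `Omega F = F + [0,1)^d`; tilings of `ℝ^d` up to null sets by
`Omega F` are exact tilings by half-open cubes.
-/

namespace Vale.Agent.P043.PTC

open MeasureTheory Set Filter Topology

variable {d : ℕ}

/-- The union of the half-open unit cubes `f + [0,1)^d`, `f ∈ F`. -/
def Omega (F : Finset (Fin d → ℤ)) : Set (Fin d → ℝ) := {x | (fun k => ⌊x k⌋) ∈ F}

/-- The translates `a + Ω`, `a ∈ A`, cover `ℝ^d` up to a null set and pairwise intersect in null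
sets. -/
def IsTilingAE (A Ω : Set (Fin d → ℝ)) : Prop :=
  volume (⋃ a ∈ A, (fun x => a + x) '' Ω)ᶜ = 0 ∧
    ∀ a ∈ A, ∀ a' ∈ A, a ≠ a' →
      volume (((fun x => a + x) '' Ω) ∩ ((fun x => a' + x) '' Ω)) = 0

/-- `A` is invariant under a lattice of rank `d` (the `ℤ`-span of a basis of `ℝ^d`). -/
def IsPeriodicR (A : Set (Fin d → ℝ)) : Prop :=
  ∃ v : Module.Basis (Fin d) ℝ (Fin d → ℝ),
    ∀ l ∈ Submodule.span ℤ (Set.range v), (fun a => a + l) '' A = A

theorem mem_tr {a x : Fin d → ℝ} {Ω : Set (Fin d → ℝ)} :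
    x ∈ (fun x => a + x) '' Ω ↔ x - a ∈ Ω := by
  constructor
  · rintro ⟨y, hy, rfl⟩
    simpa using hy
  · intro h
    exact ⟨x - a, h, by simp⟩

theorem mem_omega {F : Finset (Fin d → ℤ)} {x : Fin d → ℝ} :
    x ∈ Omega F ↔ ∃ f ∈ F, ∀ k, (f k : ℝ) ≤ x k ∧ x k < f k + 1 := by
  constructor
  · intro h
    exact ⟨_, h, fun k => ⟨Int.floor_le _, Int.lt_floor_add_one _⟩⟩
  · rintro ⟨f, hf, h⟩
    have : (fun k => ⌊x k⌋) = f := by
      funext k
      exact Int.floor_eq_iff.2 (h k)
    show (fun k => ⌊x k⌋) ∈ F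
    rw [this]; exact hf

/-- the index type of all unit cubes -/
abbrev Ix (A : Set (Fin d → ℝ)) (F : Finset (Fin d → ℤ)) : Type :=
  {p : (Fin d → ℝ) × (Fin d → ℤ) // p.1 ∈ A ∧ p.2 ∈ F}

/-- lower corner of a cube -/
def crn {A : Set (Fin d → ℝ)} {F : Finset (Fin d → ℤ)} (i : Ix A F) (k : Fin d) : ℝ :=
  i.1.1 k + (i.1.2 k : ℝ)

theorem mem_tr_omega {A : Set (Fin d → ℝ)} {F : Finset (Fin d → ℤ)} (i : Ix A F)
    {x : Fin d → ℝ} (h : ∀ k, crn i k ≤ x k ∧ x k < crn i k + 1) :
    x ∈ (fun x => i.1.1 + x) '' Omega F := by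
  rw [mem_tr, mem_omega]
  refine ⟨i.1.2, i.2.2, fun k => ?_⟩
  have := h k
  simp only [crn] at this
  simp only [Pi.sub_apply]
  constructor <;> linarith

theorem disj_of_ae {A : Set (Fin d → ℝ)} {F : Finset (Fin d → ℤ)}
    (h : IsTilingAE A (Omega F)) (i i' : Ix A F) (x : Fin d → ℝ)
    (hi : ∀ k, crn i k ≤ x k ∧ x k < crn i k + 1)
    (hi' : ∀ k, crn i' k ≤ x k ∧ x k < crn i' k + 1) : i = i' := by
  by_cases haa : i.1.1 = i'.1.1
  · apply Subtype.ext
    apply Prod.ext haa
    funext k
    have h1 := hi k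
    have h2 := hi' k
    simp only [crn] at h1 h2
    rw [← haa] at h2
    have e1 : ⌊x k - i.1.1 k⌋ = i.1.2 k := by
      rw [Int.floor_eq_iff]; constructor <;> linarith
    have e2 : ⌊x k - i.1.1 k⌋ = i'.1.2 k := by
      rw [Int.floor_eq_iff]; constructor <;> linarith
    rw [← e1, e2]
  · exfalso
    have h0 := h.2 _ i.2.1 _ i'.2.1 haa
    set U : Set (Fin d → ℝ) := Set.pi Set.univ
      (fun k => Set.Ioo (max (crn i k) (crn i' k)) (min (crn i k) (crn i' k) + 1)) with hU
    have hUo : IsOpen U := isOpen_set_pi Set.finite_univ (fun k _ => isOpen_Ioo)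
    have hlt : ∀ k, max (crn i k) (crn i' k) < min (crn i k) (crn i' k) + 1 := by
      intro k
      have h1 := hi k
      have h2 := hi' k
      calc max (crn i k) (crn i' k) ≤ x k := max_le h1.1 h2.1
        _ < min (crn i k) (crn i' k) + 1 := by
            rcases min_choice (crn i k) (crn i' k) with h | h <;> rw [h]
            · exact h1.2
            · exact h2.2
    have hUne : U.Nonempty := by
      refine ⟨fun k => (max (crn i k) (crn i' k) + (min (crn i k) (crn i' k) + 1)) / 2, ?_⟩
      intro k _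
      have := hlt k
      simp only [Set.mem_Ioo]
      constructor <;> linarith
    have hpos : 0 < volume U := hUo.measure_pos volume hUne
    have hsub : U ⊆ ((fun x => i.1.1 + x) '' Omega F) ∩ ((fun x => i'.1.1 + x) '' Omega F) := by
      intro y hy
      have hy' : ∀ k, max (crn i k) (crn i' k) < y k ∧ y k < min (crn i k) (crn i' k) + 1 :=
        fun k => hy k (Set.mem_univ k)
      constructor
      · apply mem_tr_omega i
        intro k
        have h1 := le_max_left (crn i k) (crn i' k)
        have h2 := min_le_left (crn i k) (crn i' k)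
        have h3 := hy' k
        constructor <;> linarith
      · apply mem_tr_omega i'
        intro k
        have h1 := le_max_right (crn i k) (crn i' k)
        have h2 := min_le_right (crn i k) (crn i' k)
        have h3 := hy' k
        constructor <;> linarith
    have := measure_mono_null hsub h0
    exact absurd this hpos.ne'

/-- two cubes whose corners differ by less than one in every coordinate coincide -/
theorem eq_of_close {A : Set (Fin d → ℝ)} {F : Finset (Fin d → ℤ)}
    (h : IsTilingAE A (Omega F)) (i i' : Ix A F)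
    (hc : ∀ k, |crn i k - crn i' k| < 1) : i = i' := by
  apply disj_of_ae h i i' (fun k => max (crn i k) (crn i' k))
  · intro k
    have := abs_lt.1 (hc k)
    refine ⟨le_max_left _ _, ?_⟩
    rcases max_choice (crn i k) (crn i' k) with h | h <;> rw [h] <;> linarith
  · intro k
    have := abs_lt.1 (hc k)
    refine ⟨le_max_right _ _, ?_⟩
    rcases max_choice (crn i k) (crn i' k) with h | h <;> rw [h] <;> linarith

theorem finite_bdd {A : Set (Fin d → ℝ)} {F : Finset (Fin d → ℤ)}
    (h : IsTilingAE A (Omega F)) (R : ℝ) : {i : Ix A F | ∀ k, |crn i k| ≤ R}.Finite := by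
  have hinj : Function.Injective (fun (i : Ix A F) (k : Fin d) => ⌊crn i k⌋) := by
    intro i i' hii
    apply eq_of_close h
    intro k
    have e : ⌊crn i k⌋ = ⌊crn i' k⌋ := congrFun hii k
    have a1 := Int.floor_le (crn i k)
    have a2 := Int.lt_floor_add_one (crn i k)
    have a3 := Int.floor_le (crn i' k)
    have a4 := Int.lt_floor_add_one (crn i' k)
    rw [e] at a1 a2
    rw [abs_lt]; constructor <;> linarith
  have hfin : (Set.Icc (fun _ : Fin d => ⌊-R⌋) (fun _ : Fin d => ⌊R⌋)).Finite := Set.finite_Icc _ _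
  refine (hfin.preimage (hinj.injOn)).subset ?_
  intro i hi
  simp only [Set.mem_preimage, Set.mem_Icc, Pi.le_def]
  have hi' : ∀ k, |crn i k| ≤ R := hi
  constructor
  · intro k
    exact Int.floor_le_floor (by have := (abs_le.1 (hi' k)).1; linarith)
  · intro k
    exact Int.floor_le_floor (abs_le.1 (hi' k)).2

theorem cov_of_ae {A : Set (Fin d → ℝ)} {F : Finset (Fin d → ℤ)}
    (h : IsTilingAE A (Omega F)) : Cov (fun i : Ix A F => crn i) := by
  intro x
  have hex : ∃ i : Ix A F, ∀ k, crn i k ≤ x k ∧ x k < crn i k + 1 := by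
    by_contra hno
    push Not at hno
    -- finitely many relevant cubes
    have hfin := finite_bdd h (‖x‖ + 2)
    have hev : ∀ᶠ ε : ℝ in 𝓝[>] 0, ∀ i ∈ {i : Ix A F | ∀ k, |crn i k| ≤ ‖x‖ + 2},
        ∃ k, x k + ε < crn i k ∨ crn i k + 1 ≤ x k := by
      rw [eventually_all_finite hfin]
      intro i _
      obtain ⟨k, hk⟩ := hno i
      by_cases hlt : x k < crn i k
      · have : ∀ᶠ ε : ℝ in 𝓝[>] 0, ε < crn i k - x k :=
          (eventually_lt_nhds (by linarith : (0 : ℝ) < crn i k - x k)).filter_mono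
            nhdsWithin_le_nhds
        filter_upwards [this] with ε hε
        exact ⟨k, Or.inl (by linarith)⟩
      · exact Eventually.of_forall fun ε => ⟨k, Or.inr (hk (not_lt.1 hlt))⟩
    have hone : ∀ᶠ ε : ℝ in 𝓝[>] 0, ε < 1 :=
      (eventually_lt_nhds (by norm_num : (0 : ℝ) < 1)).filter_mono nhdsWithin_le_nhds
    have hpos : ∀ᶠ ε : ℝ in 𝓝[>] 0, 0 < ε := eventually_mem_nhdsWithin
    obtain ⟨ε, hε, hε1, hε0⟩ := (hev.and (hone.and hpos)).exists
    set U : Set (Fin d → ℝ) := Set.pi Set.univ (fun k => Set.Ioo (x k) (x k + ε)) with hU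
    have hUo : IsOpen U := isOpen_set_pi Set.finite_univ (fun k _ => isOpen_Ioo)
    have hUne : U.Nonempty := ⟨fun k => x k + ε / 2, fun k _ => by
      simp only [Set.mem_Ioo]; constructor <;> linarith⟩
    have hUpos : 0 < volume U := hUo.measure_pos volume hUne
    have hsub : U ⊆ (⋃ a ∈ A, (fun x => a + x) '' Omega F)ᶜ := by
      intro y hy hmem
      have hy' : ∀ k, x k < y k ∧ y k < x k + ε := fun k => hy k (Set.mem_univ k)
      simp only [Set.mem_iUnion] at hmem
      obtain ⟨a, ha, hya⟩ := hmem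
      rw [mem_tr, mem_omega] at hya
      obtain ⟨f, hf, hfy⟩ := hya
      set i : Ix A F := ⟨(a, f), ha, hf⟩ with hi
      have hcr : ∀ k, crn i k ≤ y k ∧ y k < crn i k + 1 := by
        intro k
        have := hfy k
        simp only [Pi.sub_apply] at this
        simp only [crn, hi]
        constructor <;> linarith
      have himem : i ∈ {i : Ix A F | ∀ k, |crn i k| ≤ ‖x‖ + 2} := by
        intro k
        have h1 := hcr k
        have h2 := hy' k
        have h3 : |x k| ≤ ‖x‖ := norm_le_pi_norm x k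
        have h4 := abs_le.1 h3
        rw [abs_le]; constructor <;> linarith
      obtain ⟨k, hk⟩ := hε i himem
      have h1 := hcr k
      have h2 := hy' k
      rcases hk with hk | hk <;> linarith
    have := measure_mono_null hsub h.1
    exact absurd this hUpos.ne'
  obtain ⟨i, hi⟩ := hex
  exact ⟨i, hi, fun i' hi' => disj_of_ae h i' i x hi' hi⟩

end Vale.Agent.P043.PTC
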