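import Mathlib

/-!
P043, final file part 1: definitions of the hand-in, bridge to the internal forms
`Tiles`, `Per`, and the passage from a group `G` to a bigger group `H`.
-/

namespace Vale.Agent.P043.PTC

/-- `A ⊕ F = G`: every `x ∈ G` has a unique expression `x = a + f` with `a ∈ A`, `f ∈ F`. -/
def IsTiling {G : Type*} [AddCommGroup G] (A : Set G) (F : Finset G) : Prop :=
  ∀ x : G, ∃! p : G × G, p.1 ∈ A ∧ p.2 ∈ F ∧ p.1 + p.2 = x

/-- `A + h = A` for all `h` in some subgroup of finite index. -/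
def IsPeriodic {G : Type*} [AddCommGroup G] (A : Set G) : Prop :=
  ∃ H : AddSubgroup G, H.FiniteIndex ∧ ∀ h ∈ H, (fun a => a + h) '' A = A

/-- internal form of `A ⊕ E = G` -/
def Tiles {G : Type*} [AddCommGroup G] (A E : Set G) : Prop :=
  ∀ g : G, ∃! e, e ∈ E ∧ g - e ∈ A

/-- internal form of periodicity -/
def Per {G : Type*} [AddCommGroup G] (A : Set G) : Prop :=
  ∃ N : ℕ, 0 < N ∧ ∀ g h : G, g + N • h ∈ A ↔ g ∈ A

theorem isTiling_iff {G : Type*} [AddCommGroup G] (A : Set G) (F : Finset G) :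
    IsTiling A F ↔ Tiles A (F : Set G) := by
  constructor
  · intro h g
    obtain ⟨⟨a, f⟩, ⟨ha, hf, hx⟩, hu⟩ := h g
    simp only at ha hf hx
    refine ⟨f, ⟨Finset.mem_coe.2 hf, ?_⟩, ?_⟩
    · rw [← hx]; simpa using ha
    · rintro e ⟨he, hea⟩
      have := hu (g - e, e) ⟨hea, Finset.mem_coe.1 he, sub_add_cancel g e⟩
      exact congrArg Prod.snd this
  · intro h g
    obtain ⟨f, ⟨hf, ha⟩, hu⟩ := h g
    refine ⟨(g - f, f), ⟨ha, Finset.mem_coe.1 hf, sub_add_cancel g f⟩, ?_⟩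
    rintro ⟨a, e⟩ ⟨ha', he, hx⟩
    simp only at ha' he hx
    have hge : g - e = a := by rw [← hx]; abel
    have : e = f := hu e ⟨Finset.mem_coe.2 he, by rw [hge]; exact ha'⟩
    subst this
    rw [← hge]

theorem per_of_isPeriodic {G : Type*} [AddCommGroup G] {A : Set G} (h : IsPeriodic A) :
    Per A := by
  obtain ⟨H, hH, hA⟩ := h
  have key : ∀ g, ∀ k ∈ H, g + k ∈ A ↔ g ∈ A := by
    intro g k hk
    constructor
    · intro hg
      rw [← hA k hk] at hg
      obtain ⟨a, ha, hak⟩ := hg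
      have : a = g := add_right_cancel hak
      rwa [← this]
    · intro hg
      rw [← hA k hk]
      exact ⟨g, hg, rfl⟩
  refine ⟨H.index, Nat.pos_of_ne_zero hH.index_ne_zero, fun g k => key g _ ?_⟩
  exact AddSubgroup.nsmul_index_mem H k

/-- a tile without periodic tiling -/
def BadTile (G : Type*) [AddCommGroup G] : Prop :=
  ∃ F : Finset G, (∃ A : Set G, Tiles A (F : Set G)) ∧
    ∀ A : Set G, Tiles A (F : Set G) → ¬ Per A

/-- the passage from `G` to `H` along a split injection. -/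
theorem BadTile.transfer {G H : Type*} [AddCommGroup G] [AddCommGroup H]
    (hG : BadTile G) (i : G →+ H) (p : H →+ G) (hpi : ∀ g, p (i g) = g) : BadTile H := by
  classical
  obtain ⟨F, ⟨A, hA⟩, hF⟩ := hG
  have hinj : Function.Injective i := fun a b hab => by
    rw [← hpi a, ← hpi b, hab]
  refine ⟨F.image i, ⟨p ⁻¹' A, ?_⟩, ?_⟩
  · intro h
    obtain ⟨e, ⟨he, hea⟩, hu⟩ := hA (p h)
    refine ⟨i e, ⟨?_, ?_⟩, ?_⟩
    · simpa using ⟨e, he, rfl⟩
    · simpa [hpi] using hea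
    · rintro e' ⟨he', hea'⟩
      rw [Finset.coe_image] at he'
      obtain ⟨e1, he1, rfl⟩ := he'
      have : e1 = e := hu e1 ⟨he1, by simpa [hpi] using hea'⟩
      rw [this]
  · intro A' hA' hper
    refine hF (i ⁻¹' A') ?_ ?_
    · intro g
      obtain ⟨e', ⟨he', hea'⟩, hu⟩ := hA' (i g)
      rw [Finset.coe_image] at he'
      obtain ⟨e, he, rfl⟩ := he'
      refine ⟨e, ⟨he, ?_⟩, ?_⟩
      · simpa using hea'
      · rintro e1 ⟨he1, hea1⟩
        apply hinj
        refine hu (i e1) ⟨?_, ?_⟩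
        · rw [Finset.coe_image]; exact ⟨e1, he1, rfl⟩
        · simpa using hea1
    · obtain ⟨N, hN, hNA⟩ := hper
      refine ⟨N, hN, fun g h => ?_⟩
      have := hNA (i g) (i h)
      simpa using this

/-- coordinates of the embedding `ℤ^4 → ℤ^d`. -/
def emb (d : ℕ) (hd : 4 ≤ d) : ((ℤ × ℤ × ℤ) × ℤ) →+ (Fin d → ℤ) where
  toFun g j := if j.1 = 0 then g.1.1 else if j.1 = 1 then g.1.2.1 else
    if j.1 = 2 then g.1.2.2 else if j.1 = 3 then g.2 else 0
  map_zero' := by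
    funext j; simp
  map_add' a b := by
    funext j
    simp only [Pi.add_apply, Prod.fst_add, Prod.snd_add]
    split_ifs <;> simp

/-- coordinates of the projection `ℤ^d → ℤ^4`. -/
def prj (d : ℕ) (hd : 4 ≤ d) : (Fin d → ℤ) →+ ((ℤ × ℤ × ℤ) × ℤ) where
  toFun f := ((f ⟨0, by omega⟩, f ⟨1, by omega⟩, f ⟨2, by omega⟩), f ⟨3, by omega⟩)
  map_zero' := by simp
  map_add' a b := by simp

theorem prj_emb (d : ℕ) (hd : 4 ≤ d) (g : (ℤ × ℤ × ℤ) × ℤ) : prj d hd (emb d hd g) = g := by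
  rcases g with ⟨⟨a, b, c⟩, u⟩
  simp [prj, emb]

/-- from a tile of `ℤ^4` (in product form) without periodic tiling to all dimensions `d ≥ 4`,
in the definitions of the hand-in. -/
theorem final_of_badTile (h : BadTile ((ℤ × ℤ × ℤ) × ℤ)) (d : ℕ) (hd : 4 ≤ d) :
    ∃ F : Finset (Fin d → ℤ), (∃ A : Set (Fin d → ℤ), IsTiling A F) ∧
      ∀ A : Set (Fin d → ℤ), IsTiling A F → ¬ IsPeriodic A := by
  obtain ⟨F, ⟨A, hA⟩, hF⟩ := h.transfer (emb d hd) (prj d hd) (prj_emb d hd)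
  exact ⟨F, ⟨A, (isTiling_iff A F).2 hA⟩,
    fun A' hA' hper => hF A' ((isTiling_iff A' F).1 hA') (per_of_isPeriodic hper)⟩

end Vale.Agent.P043.PTC
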