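import Mathlib
import Vale.Agent.P043.PTC.Euclid2
import Vale.Agent.P043.PTC.Transfer

/-!
P043, Euclidean form, part 3: rounding by a `ℚ`-linear retraction `ℝ → ℚ`; periodicity.
-/

namespace Vale.Agent.P043.PTC

open MeasureTheory Set Filter Topology

variable {d : ℕ}

theorem exists_retraction : ∃ ψ : ℝ →ₗ[ℚ] ℚ, ψ 1 = 1 := by
  have hinj : Function.Injective (Algebra.linearMap ℚ ℝ) := by
    intro a b h
    simpa using h
  obtain ⟨g, hg⟩ := LinearMap.exists_leftInverse_of_injective (Algebra.linearMap ℚ ℝ)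
    (LinearMap.ker_eq_bot.2 hinj)
  refine ⟨g, ?_⟩
  have := congrArg (fun f => f 1) hg
  simpa using this

theorem psi_ratint (ψ : ℝ →ₗ[ℚ] ℚ) (h1 : ψ 1 = 1) (n : ℤ) : ψ (n : ℝ) = n := by
  have : (n : ℝ) = (n : ℚ) • (1 : ℝ) := by simp
  rw [this, map_smul, h1]; simp

/-- the rounded tiling -/
def rnd (ψ : ℝ →ₗ[ℚ] ℚ) (A : Set (Fin d → ℝ)) : Set (Fin d → ℤ) :=
  {m | ∃ a ∈ A, ∀ k, m k = ⌈ψ (a k)⌉}

theorem cov_psi (ψ : ℝ →ₗ[ℚ] ℚ) (h1 : ψ 1 = 1) {A : Set (Fin d → ℝ)}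
    {F : Finset (Fin d → ℤ)} (h : IsTilingAE A (Omega F)) :
    Cov (fun (i : Ix A F) k => ((ψ (i.1.1 k) : ℚ) : ℝ) + (i.1.2 k : ℝ)) := by
  have := (cov_of_ae h).shift_all (fun t => ((ψ t : ℚ) : ℝ)) (fun t => by
    simp only [map_add, h1]; push_cast; ring)
  convert this using 3 with i k
  simp only [crn, map_add, psi_ratint ψ h1]
  push_cast
  ring

theorem tiles_rnd (ψ : ℝ →ₗ[ℚ] ℚ) (h1 : ψ 1 = 1) {A : Set (Fin d → ℝ)}
    {F : Finset (Fin d → ℤ)} (h : IsTilingAE A (Omega F)) :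
    Tiles (rnd ψ A) (F : Set (Fin d → ℤ)) := by
  have hc := cov_psi ψ h1 h
  intro g
  obtain ⟨i, hi, hu⟩ := hc (fun k => (g k : ℝ))
  refine ⟨i.1.2, ⟨Finset.mem_coe.2 i.2.2, i.1.1, i.2.1, fun k => ?_⟩, ?_⟩
  · have := hi k
    symm
    rw [Pi.sub_apply, Int.ceil_eq_iff]
    push_cast
    have e1 : ((ψ (i.1.1 k) : ℚ) : ℝ) ≤ ((g k - i.1.2 k : ℤ) : ℝ) := by push_cast; linarith
    have e2 : ((g k - i.1.2 k - 1 : ℤ) : ℝ) < ((ψ (i.1.1 k) : ℚ) : ℝ) := by push_cast; linarith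
    constructor
    · exact_mod_cast e2
    · exact_mod_cast e1
  · rintro e ⟨he, a, ha, hae⟩
    have := hu ⟨(a, e), ha, Finset.mem_coe.1 he⟩ (fun k => by
      have hk := hae k
      rw [eq_comm, Pi.sub_apply, Int.ceil_eq_iff] at hk
      obtain ⟨q1, q2⟩ := hk
      have e1 : ((ψ (a k) : ℚ) : ℝ) ≤ ((g k - e k : ℤ) : ℝ) := by exact_mod_cast q2
      have e2 : ((g k - e k - 1 : ℤ) : ℝ) < ((ψ (a k) : ℚ) : ℝ) := by
        push_cast
        have : (((g k - e k : ℤ) : ℚ) : ℝ) - 1 < ((ψ (a k) : ℚ) : ℝ) := by exact_mod_cast q1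
        push_cast at this
        exact this
      push_cast at e1 e2
      constructor <;> simp only <;> linarith)
    rw [← this]

/-- common denominator -/
theorem exists_denom (u : Fin d → Fin d → ℚ) :
    ∃ q : ℕ, 0 < q ∧ ∃ W : Matrix (Fin d) (Fin d) ℤ, ∀ i k, (W i k : ℚ) = q * u i k := by
  refine ⟨∏ i, ∏ k, (u i k).den, Finset.prod_pos fun i _ => Finset.prod_pos fun k _ => (u i k).pos, ?_⟩
  have : ∀ i k, ∃ z : ℤ, (z : ℚ) = ((∏ i, ∏ k, (u i k).den : ℕ) : ℚ) * u i k := by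
    intro i k
    have hd : (u i k).den ∣ ∏ i, ∏ k, (u i k).den :=
      (Finset.dvd_prod_of_mem (fun k => (u i k).den) (Finset.mem_univ k)).trans
        (Finset.dvd_prod_of_mem (fun i => ∏ k, (u i k).den) (Finset.mem_univ i))
    obtain ⟨c, hc⟩ := hd
    refine ⟨(c : ℤ) * (u i k).num, ?_⟩
    rw [hc]
    push_cast
    have := Rat.mul_den_eq_num (u i k)
    rw [← this]
    ring
  choose W hW using this
  exact ⟨W, hW⟩

theorem per_rnd (ψ : ℝ →ₗ[ℚ] ℚ) (h1 : ψ 1 = 1) {A : Set (Fin d → ℝ)}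
    {F : Finset (Fin d → ℤ)} (hF : F.Nonempty) (h : IsTilingAE A (Omega F))
    (hP : IsPeriodicR A) : Per (rnd ψ A) := by
  obtain ⟨v, hv⟩ := hP
  have hadd : ∀ l ∈ Submodule.span ℤ (Set.range v), ∀ a ∈ A, a + l ∈ A := by
    intro l hl a ha
    rw [← hv l hl]
    exact ⟨a, ha, rfl⟩
  obtain ⟨q, hq, W, hW⟩ := exists_denom (fun i k => ψ (v i k))
  by_cases hdet : W.det = 0
  · exfalso
    obtain ⟨ξ, hξ0, hξ⟩ := Matrix.exists_mulVec_eq_zero_iff.2 hdet
    -- the functional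
    let Φ : (Fin d → ℝ) →ₗ[ℤ] ℚ :=
      { toFun := fun x => ∑ k, (ξ k : ℚ) * ψ (x k)
        map_add' := by
          intro x y
          simp only [Pi.add_apply, map_add, mul_add, Finset.sum_add_distrib]
        map_smul' := by
          intro m x
          rw [eq_intCast, Int.cast_id, Finset.smul_sum]
          refine Finset.sum_congr rfl fun k _ => ?_
          rw [Pi.smul_apply, map_zsmul, zsmul_eq_mul, zsmul_eq_mul]
          ring }
    have hΦv : ∀ i, Φ (v i) = 0 := by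
      intro i
      have h2 := congrFun hξ i
      simp only [Matrix.mulVec, dotProduct, Pi.zero_apply] at h2
      have h3 : (∑ k, ((W i k : ℤ) : ℚ) * (ξ k : ℚ)) = 0 := by exact_mod_cast h2
      have h4 : (q : ℚ) * Φ (v i) = 0 := by
        show (q : ℚ) * ∑ k, (ξ k : ℚ) * ψ (v i k) = 0
        rw [Finset.mul_sum, ← h3]
        refine Finset.sum_congr rfl fun k _ => ?_
        rw [hW]; ring
      have hq' : (q : ℚ) ≠ 0 := by exact_mod_cast hq.ne'
      exact (mul_eq_zero.1 h4).resolve_left hq'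
    have hΦl : ∀ l ∈ Submodule.span ℤ (Set.range v), Φ l = 0 := by
      intro l hl
      have : Submodule.span ℤ (Set.range v) ≤ LinearMap.ker Φ := by
        rw [Submodule.span_le]
        rintro _ ⟨i, rfl⟩
        exact hΦv i
      exact this hl
    -- bounded on `A`
    obtain ⟨f0, hf0⟩ := hF
    obtain ⟨R, hR⟩ := (ZSpan.fundamentalDomain_isBounded v).exists_norm_le
    have hfin := finite_bdd h (R + ‖(fun k => (f0 k : ℝ))‖)
    obtain ⟨C, hC⟩ := (hfin.image (fun i : Ix A F => |((Φ i.1.1 : ℚ) : ℝ)|)).bddAbove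
    have hbdd : ∀ a ∈ A, |((Φ a : ℚ) : ℝ)| ≤ C := by
      intro a ha
      have hfl : -(ZSpan.floor v a : Fin d → ℝ) ∈ Submodule.span ℤ (Set.range v) :=
        Submodule.neg_mem _ (ZSpan.floor v a).2
      have ha' : a + -(ZSpan.floor v a : Fin d → ℝ) ∈ A := hadd _ hfl a ha
      have hfr : a + -(ZSpan.floor v a : Fin d → ℝ) = ZSpan.fract v a := by
        rw [ZSpan.fract]; abel
      have hmem := ZSpan.fract_mem_fundamentalDomain v a
      have hn := hR _ hmem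
      rw [← hfr] at hn
      have hΦa : Φ (a + -(ZSpan.floor v a : Fin d → ℝ)) = Φ a := by
        rw [map_add, hΦl _ hfl, add_zero]
      rw [← hΦa]
      refine hC ⟨⟨(a + -(ZSpan.floor v a : Fin d → ℝ), f0), ha', hf0⟩, ?_, rfl⟩
      intro k
      simp only [crn]
      calc |(a + -(ZSpan.floor v a : Fin d → ℝ)) k + (f0 k : ℝ)|
          ≤ |(a + -(ZSpan.floor v a : Fin d → ℝ)) k| + |(f0 k : ℝ)| := abs_add_le _ _
        _ ≤ R + ‖(fun k => (f0 k : ℝ))‖ := by
            refine add_le_add ?_ ?_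
            · exact (norm_le_pi_norm (a + -(ZSpan.floor v a : Fin d → ℝ)) k).trans hn
            · exact norm_le_pi_norm (fun k => (f0 k : ℝ)) k
    -- unbounded
    obtain ⟨M, hM⟩ := (F.finite_toSet.image (fun f : Fin d → ℤ => |∑ k, (ξ k : ℝ) * (f k : ℝ)|)).bddAbove
    set S : ℝ := ∑ k, |(ξ k : ℝ)| with hS
    obtain ⟨t, ht⟩ := exists_nat_gt (C + M + S)
    obtain ⟨i, hi, _⟩ := cov_psi ψ h1 h (fun k => ((t : ℤ) * ξ k : ℤ))
    have e1 : |∑ k, (ξ k : ℝ) * ((((t : ℤ) * ξ k : ℤ) : ℝ)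
        - (((ψ (i.1.1 k) : ℚ) : ℝ) + (i.1.2 k : ℝ)))| ≤ S := by
      refine (Finset.abs_sum_le_sum_abs _ _).trans (Finset.sum_le_sum fun k _ => ?_)
      rw [abs_mul]
      have := hi k
      have h3 : |((((t : ℤ) * ξ k : ℤ) : ℝ) - (((ψ (i.1.1 k) : ℚ) : ℝ) + (i.1.2 k : ℝ)))| ≤ 1 := by
        rw [abs_le]; constructor <;> linarith
      calc |(ξ k : ℝ)| * _ ≤ |(ξ k : ℝ)| * 1 := by gcongr
        _ = |(ξ k : ℝ)| := mul_one _
    have e2 : ∑ k, (ξ k : ℝ) * ((((t : ℤ) * ξ k : ℤ) : ℝ)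
        - (((ψ (i.1.1 k) : ℚ) : ℝ) + (i.1.2 k : ℝ)))
        = t * (∑ k, (ξ k : ℝ) ^ 2) - ((Φ i.1.1 : ℚ) : ℝ) - ∑ k, (ξ k : ℝ) * (i.1.2 k : ℝ) := by
      have : ((Φ i.1.1 : ℚ) : ℝ) = ∑ k, (ξ k : ℝ) * ((ψ (i.1.1 k) : ℚ) : ℝ) := by
        show ((∑ k, (ξ k : ℚ) * ψ (i.1.1 k) : ℚ) : ℝ) = _
        push_cast
        rfl
      rw [this, Finset.mul_sum, ← Finset.sum_sub_distrib, ← Finset.sum_sub_distrib]
      refine Finset.sum_congr rfl fun k _ => ?_
      push_cast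
      ring
    have e3 := hbdd i.1.1 i.2.1
    have e4 : |∑ k, (ξ k : ℝ) * (i.1.2 k : ℝ)| ≤ M := hM ⟨i.1.2, i.2.2, rfl⟩
    have e5 : (1 : ℝ) ≤ ∑ k, (ξ k : ℝ) ^ 2 := by
      obtain ⟨k, hk⟩ := Function.ne_iff.1 hξ0
      rw [Pi.zero_apply] at hk
      have h6 : (1 : ℝ) ≤ (ξ k : ℝ) ^ 2 := by
        have : (1 : ℤ) ≤ ξ k ^ 2 := by
          have : 0 < ξ k ^ 2 := by positivity
          omega
        exact_mod_cast this
      exact h6.trans (Finset.single_le_sum (f := fun k => (ξ k : ℝ) ^ 2)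
        (fun k _ => by positivity) (Finset.mem_univ k))
    rw [e2] at e1
    have f1 := abs_le.1 e1
    have f3 := abs_le.1 e3
    have f4 := abs_le.1 e4
    have f5 : (t : ℝ) ≤ t * (∑ k, (ξ k : ℝ) ^ 2) := by
      have : (0 : ℝ) ≤ t := Nat.cast_nonneg t
      nlinarith
    linarith [f1.2, f3.2, f4.2]
  · -- nondegenerate case
    have hstep : ∀ h : Fin d → ℤ, ∀ g ∈ rnd ψ A, g + W.det • h ∈ rnd ψ A := by
      rintro h' g ⟨a, ha, hag⟩
      set c : Fin d → ℤ := Matrix.vecMul h' W.adjugate with hc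
      have hcW : Matrix.vecMul c W = W.det • h' := by
        rw [hc, Matrix.vecMul_vecMul, Matrix.adjugate_mul, Matrix.vecMul_smul, Matrix.vecMul_one]
      set l : Fin d → ℝ := ∑ i, ((q : ℤ) * c i) • v i with hl
      have hlmem : l ∈ Submodule.span ℤ (Set.range v) := by
        refine Submodule.sum_mem _ fun i _ => Submodule.smul_mem _ _ (Submodule.subset_span ⟨i, rfl⟩)
      refine ⟨a + l, hadd l hlmem a ha, fun k => ?_⟩
      have hψl : ψ (l k) = ((W.det • h') k : ℤ) := by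
        rw [← hcW]
        simp only [hl, Finset.sum_apply, Pi.smul_apply, map_sum, map_zsmul, Matrix.vecMul,
          dotProduct]
        push_cast
        refine Finset.sum_congr rfl fun i _ => ?_
        rw [hW, zsmul_eq_mul]
        push_cast
        ring
      rw [Pi.add_apply, Pi.add_apply, map_add, hψl, Int.ceil_add_intCast, hag k]
    refine ⟨W.det.natAbs, Int.natAbs_pos.2 hdet, fun g h' => ?_⟩
    have hstep2 : ∀ h' : Fin d → ℤ, ∀ g ∈ rnd ψ A, g + W.det.natAbs • h' ∈ rnd ψ A := by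
      intro h' g hg
      rcases Int.natAbs_eq W.det with he | he
      · have := hstep h' g hg
        rw [he] at this
        simpa using this
      · have := hstep (-h') g hg
        rw [he] at this
        simpa using this
    constructor
    · intro hg
      have := hstep2 (-h') _ hg
      simpa using this
    · exact hstep2 h' g

end Vale.Agent.P043.PTC
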