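import Mathlib
import Vale.Agent.P043.PTC.Euclid3

/-!
P043, Euclidean form, part 4: a tile of `ℤ^d` without periodic tiling gives a polycube in `ℝ^d`
that tiles (up to null sets) but has no periodic tiling.
-/

namespace Vale.Agent.P043.PTC

open MeasureTheory Set Filter Topology

variable {d : ℕ}

theorem isPeriodic_of_per {A : Set (Fin d → ℤ)} (h : Per A) : IsPeriodic A := by
  obtain ⟨N, hN, hA⟩ := h
  have : NeZero N := ⟨hN.ne'⟩
  let φ : (Fin d → ℤ) →+ (Fin d → ZMod N) :=
    { toFun := fun x k => (x k : ZMod N)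
      map_zero' := by funext k; simp
      map_add' := by intro x y; funext k; simp }
  refine ⟨φ.ker, inferInstance, ?_⟩
  intro h hh
  have hk : ∀ k, (N : ℤ) ∣ h k := by
    intro k
    have := congrFun (AddMonoidHom.mem_ker.1 hh) k
    exact (ZMod.intCast_zmod_eq_zero_iff_dvd (h k) N).1 this
  choose c hc using hk
  have hNc : h = N • c := by
    funext k
    rw [hc k, Pi.smul_apply, nsmul_eq_mul]
  ext g
  constructor
  · rintro ⟨a, ha, rfl⟩
    show a + h ∈ A
    rw [hNc]
    exact (hA a c).2 ha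
  · intro hg
    refine ⟨g - h, ?_, sub_add_cancel g h⟩
    have h3 := hA (g - h) c
    rw [← hNc, sub_add_cancel] at h3
    exact h3.1 hg

theorem omega_eq_iUnion (F : Finset (Fin d → ℤ)) :
    Omega F = ⋃ f ∈ F, Set.pi Set.univ (fun k => Set.Ico (f k : ℝ) (f k + 1)) := by
  ext x
  rw [mem_omega]
  simp [Set.mem_pi]

theorem measurableSet_omega (F : Finset (Fin d → ℤ)) : MeasurableSet (Omega F) := by
  rw [omega_eq_iUnion]
  refine Finset.measurableSet_biUnion F fun f _ => ?_
  exact MeasurableSet.univ_pi fun k => measurableSet_Ico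

theorem isBounded_omega (F : Finset (Fin d → ℤ)) : Bornology.IsBounded (Omega F) := by
  rw [omega_eq_iUnion]
  refine (Bornology.isBounded_biUnion_finset F).2 fun f _ => ?_
  exact Bornology.IsBounded.pi fun k => Metric.isBounded_Ico _ _

theorem volume_omega_pos {F : Finset (Fin d → ℤ)} (hF : F.Nonempty) : 0 < volume (Omega F) := by
  obtain ⟨f, hf⟩ := hF
  have hsub : Set.pi Set.univ (fun k => Set.Ioo (f k : ℝ) (f k + 1)) ⊆ Omega F := by
    intro x hx
    rw [mem_omega]
    exact ⟨f, hf, fun k => ⟨(hx k (Set.mem_univ k)).1.le, (hx k (Set.mem_univ k)).2⟩⟩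
  refine lt_of_lt_of_le (IsOpen.measure_pos volume
    (isOpen_set_pi Set.finite_univ (fun k _ => isOpen_Ioo)) ?_) (measure_mono hsub)
  refine ⟨fun k => (f k : ℝ) + 1 / 2, fun k _ => ?_⟩
  simp only [Set.mem_Ioo]
  constructor <;> linarith

theorem tilingAE_of_tiles {A : Set (Fin d → ℤ)} {F : Finset (Fin d → ℤ)}
    (hA : Tiles A (F : Set (Fin d → ℤ))) :
    IsTilingAE {x | ∃ a ∈ A, x = fun k => (a k : ℝ)} (Omega F) := by
  have key : ∀ (a : Fin d → ℤ) (y : Fin d → ℝ),
      y ∈ (fun x => (fun k => (a k : ℝ)) + x) '' Omega F ↔ (fun k => ⌊y k⌋) - a ∈ F := by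
    intro a y
    rw [mem_tr]
    show (fun k => ⌊(y - fun k => (a k : ℝ)) k⌋) ∈ F ↔ _
    have : (fun k => ⌊(y - fun k => (a k : ℝ)) k⌋) = (fun k => ⌊y k⌋) - a := by
      funext k
      simp
    rw [this]
  constructor
  · have : (⋃ a ∈ {x : Fin d → ℝ | ∃ a ∈ A, x = fun k => (a k : ℝ)},
        (fun x => a + x) '' Omega F) = Set.univ := by
      rw [Set.eq_univ_iff_forall]
      intro y
      obtain ⟨e, ⟨he, hea⟩, _⟩ := hA (fun k => ⌊y k⌋)
      simp only [Set.mem_iUnion]
      refine ⟨_, ⟨_, hea, rfl⟩, ?_⟩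
      rw [key]
      simpa using he
    rw [this]
    simp
  · rintro _ ⟨a, ha, rfl⟩ _ ⟨a', ha', rfl⟩ hne
    have : ((fun x => (fun k => (a k : ℝ)) + x) '' Omega F) ∩
        ((fun x => (fun k => (a' k : ℝ)) + x) '' Omega F) = ∅ := by
      rw [Set.eq_empty_iff_forall_notMem]
      rintro y ⟨h1, h2⟩
      rw [key] at h1 h2
      obtain ⟨e, _, hu⟩ := hA (fun k => ⌊y k⌋)
      have e1 := hu _ ⟨Finset.mem_coe.2 h1, by simpa using ha⟩
      have e2 := hu _ ⟨Finset.mem_coe.2 h2, by simpa using ha'⟩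
      have : a = a' := by
        have h3 := e1.trans e2.symm
        exact sub_right_injective h3
      exact hne (by rw [this])
    rw [this]
    simp

/-- From `ℤ^d` to `ℝ^d`: for every finite tile `F` of `ℤ^d` without periodic tiling the polycube
`F + [0,1)^d` tiles `ℝ^d` but has no periodic tiling (not even up to null sets, nor with respect to
an irrational lattice). -/
theorem euclid_of_bad {F : Finset (Fin d → ℤ)} (h1 : ∃ A, IsTiling A F)
    (h2 : ∀ A, IsTiling A F → ¬ IsPeriodic A) :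
    MeasurableSet (Omega F) ∧ Bornology.IsBounded (Omega F) ∧ 0 < volume (Omega F) ∧
      (∃ A, IsTilingAE A (Omega F)) ∧ ∀ A, IsTilingAE A (Omega F) → ¬ IsPeriodicR A := by
  obtain ⟨A, hA⟩ := h1
  have hF : F.Nonempty := by
    obtain ⟨p, ⟨_, hp, _⟩, _⟩ := hA 0
    exact ⟨p.2, hp⟩
  refine ⟨measurableSet_omega F, isBounded_omega F, volume_omega_pos hF,
    ⟨_, tilingAE_of_tiles ((isTiling_iff A F).1 hA)⟩, ?_⟩
  intro B hB hP
  obtain ⟨ψ, hψ⟩ := exists_retraction
  exact h2 (rnd ψ B) ((isTiling_iff _ F).2 (tiles_rnd ψ hψ hB))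
    (isPeriodic_of_per (per_rnd ψ hψ hF hB hP))

end Vale.Agent.P043.PTC
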